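import Vale.Agent.P207.N4.Dim
import Vale.Agent.P207.N7.H547.AffLemB

/-!
# P207, line N7, row AFFLEM, part A4: the tensor in the affine coordinate

`P.HS x q` is the Hessian of `b_{em x} + b_η` at the point `q` of the disc of `x`, `η = pt x q`,
in the affine coordinate; `P.N0 x q` is its inverse. Both are positive definite, continuous in
`(x, q)`, invariant, with uniform bounds. `P.Na x q = c₀ • P.N0 x q + P.Rl x q` (`link`), `P.Rl` has
jointly continuous derivatives and uniform bounds.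
-/

set_option linter.unusedSectionVars false

open Set Filter Topology Metric
open scoped ContDiff

noncomputable section

namespace Vale.Agent.P207.N4.Y

open Vale.Agent.P207.N3

variable [Dim]

namespace H547

open Vale.Agent.P207.N4.H709

/-! ### positive operators -/

theorem isInvertible_of_pos {A : E2 →L[ℝ] E2} (h : ∀ v ≠ 0, 0 < inner ℝ (A v) v) :
    A.IsInvertible := by
  have h1 : Function.Injective (A : E2 →ₗ[ℝ] E2) := by
    refine (injective_iff_map_eq_zero _).2 fun v hv => ?_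
    by_contra hv0
    have h2 := h v hv0
    have h3 : A v = 0 := hv
    rw [h3, inner_zero_left] at h2
    exact lt_irrefl _ h2
  exact ⟨(LinearEquiv.ofInjectiveEndo _ h1).toContinuousLinearEquiv, by
    ext1 v
    rfl⟩

theorem inverse_comp {A : E2 →L[ℝ] E2} (h : A.IsInvertible) :
    Ring.inverse A ∘L A = ContinuousLinearMap.id ℝ E2 := by
  obtain ⟨e, rfl⟩ := h
  rw [ContinuousLinearMap.ringInverse_equiv, ContinuousLinearMap.inverse_equiv]
  ext1 v
  exact e.symm_apply_apply v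

theorem comp_inverse {A : E2 →L[ℝ] E2} (h : A.IsInvertible) :
    A ∘L Ring.inverse A = ContinuousLinearMap.id ℝ E2 := by
  obtain ⟨e, rfl⟩ := h
  rw [ContinuousLinearMap.ringInverse_equiv, ContinuousLinearMap.inverse_equiv]
  ext1 v
  exact e.apply_symm_apply v

theorem inverse_apply {A : E2 →L[ℝ] E2} (h : A.IsInvertible) (v : E2) :
    Ring.inverse A (A v) = v := DFunLike.congr_fun (inverse_comp h) v

theorem apply_inverse {A : E2 →L[ℝ] E2} (h : A.IsInvertible) (v : E2) :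
    A (Ring.inverse A v) = v := DFunLike.congr_fun (comp_inverse h) v

theorem inverse_eq_of {A C : E2 →L[ℝ] E2} (h : C ∘L A = ContinuousLinearMap.id ℝ E2)
    (h' : A ∘L C = ContinuousLinearMap.id ℝ E2) : Ring.inverse A = C :=
  Ring.inverse_unit (⟨A, C, h', h⟩ : (E2 →L[ℝ] E2)ˣ)

theorem inverse_pos {A : E2 →L[ℝ] E2} (h : ∀ v ≠ 0, 0 < inner ℝ (A v) v) :
    ∀ v ≠ 0, 0 < inner ℝ (Ring.inverse A v) v := by
  intro v hv
  have hi := isInvertible_of_pos h
  have h1 := apply_inverse hi v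
  have h2 : Ring.inverse A v ≠ 0 := by
    intro h3
    rw [h3, map_zero] at h1
    exact hv h1.symm
  have h3 := h _ h2
  rw [h1, real_inner_comm] at h3
  exact h3

theorem inverse_symm {A : E2 →L[ℝ] E2} (hi : A.IsInvertible)
    (h : ∀ v w, inner ℝ (A v) w = inner ℝ v (A w)) (v w : E2) :
    inner ℝ (Ring.inverse A v) w = inner ℝ v (Ring.inverse A w) := by
  conv_lhs => rw [← apply_inverse hi w]
  conv_rhs => rw [← apply_inverse hi v]
  rw [h]

theorem continuousAt_inverse {A : E2 →L[ℝ] E2} (h : A.IsInvertible) :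
    ContinuousAt (Ring.inverse : (E2 →L[ℝ] E2) → E2 →L[ℝ] E2) A := by
  have h1 := NormedRing.inverse_continuousAt
    (⟨A, Ring.inverse A, comp_inverse h, inverse_comp h⟩ : (E2 →L[ℝ] E2)ˣ)
  exact h1

variable {Γ X B : Type} [Group Γ] [MetricSpace X] [ProperSpace X] [MulAction Γ X]
  [IsIsometricSMul Γ X] [TopologicalSpace B] [CompactSpace B] [T2Space B] [MulAction Γ B]
  [ContinuousConstSMul Γ B]

/-- uniform bounds of a continuous invariant family -/
theorem bnd_unif (L : Leaf Γ X B) {G : Type} [NormedAddCommGroup G] {A : X → E2 → G} {C : Set E2}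
    (hC : IsCompact C) (hA : ContinuousOn (fun p : X × E2 => A p.1 p.2) (univ ×ˢ C))
    (hinv : ∀ (g : Γ) x, ∀ q ∈ C, A (g • x) q = A x q) :
    ∃ M, ∀ x, ∀ q ∈ C, ‖A x q‖ ≤ M := by
  obtain ⟨K, hK, hK'⟩ := L.cocompact
  obtain ⟨M, hM⟩ := (hK.prod hC).exists_bound_of_continuousOn
    (hA.mono (prod_mono (subset_univ _) subset_rfl))
  refine ⟨M, fun x q hq => ?_⟩
  obtain ⟨g, hg⟩ := hK' x
  rw [← hinv g x q hq]
  exact hM (g • x, q) ⟨hg, hq⟩

/-- uniform positivity of a continuous invariant family -/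
theorem pos_unif (L : Leaf Γ X B) {A : X → E2 → E2 →L[ℝ] E2} {C : Set E2} (hC : IsCompact C)
    (hA : ContinuousOn (fun p : X × E2 => A p.1 p.2) (univ ×ˢ C))
    (hinv : ∀ (g : Γ) x, ∀ q ∈ C, A (g • x) q = A x q)
    (hpos : ∀ x, ∀ q ∈ C, ∀ v ≠ 0, 0 < inner ℝ (A x q v) v) :
    ∃ c > 0, ∀ x, ∀ q ∈ C, ∀ v, c * ‖v‖ ^ 2 ≤ inner ℝ (A x q v) v := by
  obtain ⟨K, hK, hK'⟩ := L.cocompact
  have hc : ContinuousOn (fun p : (X × E2) × E2 => inner ℝ (A p.1.1 p.1.2 p.2) p.2)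
      ((K ×ˢ C) ×ˢ sphere (0 : E2) 1) := by
    have h1 : ContinuousOn (fun p : (X × E2) × E2 => A p.1.1 p.1.2)
        ((K ×ˢ C) ×ˢ sphere (0 : E2) 1) :=
      hA.comp (f := fun p : (X × E2) × E2 => p.1) continuousOn_fst
        fun p hp => ⟨mem_univ _, hp.1.2⟩
    exact (h1.clm_apply continuousOn_snd).inner continuousOn_snd
  obtain ⟨c, hc0, h⟩ := ((hK.prod hC).prod (isCompact_sphere (0 : E2) 1)).exists_forall_le' hc
    (a := 0) fun p hp => hpos p.1.1 p.1.2 hp.1.2 p.2 (by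
      intro h0
      have h1 : p.2 ∈ sphere (0 : E2) 1 := hp.2
      rw [h0, mem_sphere_zero_iff_norm, norm_zero] at h1
      exact zero_ne_one h1)
  refine ⟨c, hc0, fun x q hq v => ?_⟩
  obtain ⟨g, hg⟩ := hK' x
  rcases eq_or_ne v 0 with rfl | hv
  · simp
  have hv' : 0 < ‖v‖ := norm_pos_iff.2 hv
  have h1 := h ((g • x, q), ‖v‖⁻¹ • v) ⟨⟨hg, hq⟩, by
    rw [mem_sphere_zero_iff_norm, norm_smul, norm_inv, norm_norm, inv_mul_cancel₀ hv'.ne']⟩
  simp only at h1
  rw [hinv g x q hq, map_smul, inner_smul_left, inner_smul_right] at h1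
  have h2 : (starRingEnd ℝ) ‖v‖⁻¹ = ‖v‖⁻¹ := rfl
  rw [h2, ← mul_assoc] at h1
  have h3 : c * ‖v‖ ^ 2 ≤ (‖v‖⁻¹ * ‖v‖⁻¹ * inner ℝ (A x q v) v) * ‖v‖ ^ 2 :=
    mul_le_mul_of_nonneg_right h1 (by positivity)
  have h4 : (‖v‖⁻¹ * ‖v‖⁻¹ * inner ℝ (A x q v) v) * ‖v‖ ^ 2 = inner ℝ (A x q v) v := by
    field_simp
  rwa [h4] at h3

end H547

open Vale.Agent.P207.N4.Y.H547 Vale.Agent.P207.N4.H709

variable {Γ X B : Type} [Group Γ] [MetricSpace X] [ProperSpace X] [MulAction Γ X]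
  [IsIsometricSMul Γ X] [TopologicalSpace B] [CompactSpace B] [T2Space B] [MulAction Γ B]
  [ContinuousConstSMul Γ B]

namespace Pic

variable {L : Leaf Γ X B} [MeasurableSpace B] [BorelSpace B] {V : Type}
  [NormedAddCommGroup V] [NormedSpace ℝ V] [FiniteDimensional ℝ V] (P : Pic L V)

/-! ### the Hessian on the disc -/

/-- the Hessian of `b_{em x} + b_η` at the point `u` of the disc of `x`, `η = e x u` -/
def He (x : X) (u : E2) : E2 →L[ℝ] E2 :=
  hess (P.Bu.be x (L.em x)) u + hess (P.Bu.be x (L.e x u)) u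

theorem He_pos (x : X) {u : E2} (hu : u ∈ ball (0 : E2) 3) (v : E2) (hv : v ≠ 0) :
    0 < inner ℝ (P.He x u v) v := by
  have h := P.Bu.pos x (L.em x) u hu (P.nupos x u hu).ne' v hv
  rwa [P.Bu.en_em x u hu] at h

theorem He_inv (x : X) {u : E2} (hu : u ∈ ball (0 : E2) 3) : (P.He x u).IsInvertible :=
  isInvertible_of_pos (P.He_pos x hu)

/-! ### the Hessian in the affine coordinate -/

/-- the Hessian of `b_{em x} + b_η` at the point `q`, `η = pt x q`, in the affine coordinate -/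
def HS (x : X) (q : E2) : E2 →L[ℝ] E2 := hess (P.Sq x (L.em x) (P.Af.pt x q)) q

theorem N0_eq_inverse (x : X) (q : E2) : P.N0 x q = Ring.inverse (P.HS x q) := rfl

theorem HS_eq (x : X) {q : E2} (h : (x, q) ∈ P.Af.dT) :
    P.HS x q = ContinuousLinearMap.adjoint (fderiv ℝ (P.dsc x) q) ∘L P.He x (P.dsc x q) ∘L
      fderiv ℝ (P.dsc x) q := by
  have h1 := P.hess_Sq_Th x (L.em x) h
  rw [P.Th_em x h] at h1
  rw [HS, h1, He, P.e_dsc h]

theorem HS_sum (x : X) {q : E2} (h : (x, q) ∈ P.Af.dT) :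
    P.HS x q = hess (P.bq x (L.em x)) q + hess (P.bq x (P.Af.pt x q)) q :=
  P.hess_Sq x _ _ h

theorem HS_pos (x : X) {q : E2} (h : (x, q) ∈ P.Af.dT) (v : E2) (hv : v ≠ 0) :
    0 < inner ℝ (P.HS x q v) v := by
  rw [P.HS_eq x h]
  change 0 < inner ℝ (ContinuousLinearMap.adjoint (fderiv ℝ (P.dsc x) q)
    (P.He x (P.dsc x q) (fderiv ℝ (P.dsc x) q v))) v
  rw [ContinuousLinearMap.adjoint_inner_left]
  refine P.He_pos x (P.mem3 h) _ fun h0 => hv ?_
  have h1 := DFunLike.congr_fun (P.Af.der_cu_dsc h) v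
  change fderiv ℝ (P.Af.cu x) (P.Af.dsc x q) (fderiv ℝ (P.dsc x) q v) = v at h1
  rw [h0, map_zero] at h1
  exact h1.symm

theorem HS_inv (x : X) {q : E2} (h : (x, q) ∈ P.Af.dT) : (P.HS x q).IsInvertible :=
  isInvertible_of_pos (P.HS_pos x h)

theorem Sq_smooth (x : X) (ξ η : B) {q : E2} (h : (x, q) ∈ P.Af.dT) :
    ContDiffAt ℝ ∞ (P.Sq x ξ η) q := (P.bq_smooth x ξ h).add (P.bq_smooth x η h)

theorem HS_symm (x : X) {q : E2} (h : (x, q) ∈ P.Af.dT) (v w : E2) :
    inner ℝ (P.HS x q v) w = inner ℝ v (P.HS x q w) :=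
  hess_symm ((P.Sq_smooth x _ _ h).of_le two_le_infty) v w

theorem HS_cont : ContinuousOn (fun p : X × E2 => P.HS p.1 p.2) P.Af.dT := by
  have h0 := (hess_jc P.bq_jc).continuousOn
  have h1 : ContinuousOn (fun p : X × E2 => hess (P.bq p.1 (L.em p.1)) p.2) P.Af.dT :=
    h0.comp (f := fun p : X × E2 => (((p.1, L.em p.1), p.2) : (X × B) × E2))
      ((continuous_fst.prodMk (L.em_cont.comp continuous_fst)).prodMk
        continuous_snd).continuousOn fun p hp => hp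
  have h2 : ContinuousOn (fun p : X × E2 => hess (P.bq p.1 (P.Af.pt p.1 p.2)) p.2) P.Af.dT :=
    h0.comp (f := fun p : X × E2 => (((p.1, P.Af.pt p.1 p.2), p.2) : (X × B) × E2))
      ((continuous_fst.prodMk P.Af.pt_cont).prodMk continuous_snd).continuousOn fun p hp => hp
  exact (h1.add h2).congr fun p hp => P.HS_sum p.1 hp

theorem hess_congr {f g : E2 → ℝ} {q : E2} (h : f =ᶠ[𝓝 q] g) : hess f q = hess g q := by
  have h1 : gradient f =ᶠ[𝓝 q] gradient g := h.eventuallyEq_nhds.mono fun _ ht => gradient_congr ht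
  exact h1.fderiv_eq

theorem HS_smul (g : Γ) {x : X} {q : E2} (h : (x, q) ∈ P.Af.dT) :
    P.HS (g • x) q = P.HS x q := by
  refine hess_congr ?_
  filter_upwards [(isOpen_slice P.Af.isOpen_dT x).mem_nhds h] with t ht
  rw [Sq, Sq, L.em_smul, P.Af.pt_smul, P.bq_smul g ht, P.bq_smul g ht]

/-- the Hessian after an isometry -/
theorem hess_rot (a : O2) {f g : E2 → ℝ} {q : E2} (h : f =ᶠ[𝓝 q] fun t => g (a t))
    (hg : ContDiffAt ℝ 2 g (a q)) (v : E2) : hess f q v = a.symm (hess g (a q) (a v)) := by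
  have hd : ∀ᶠ t in 𝓝 q, DifferentiableAt ℝ g (a t) := by
    have h1 : ∀ᶠ u in 𝓝 (a q), DifferentiableAt ℝ g u :=
      (hg.eventually (by norm_num)).mono fun t ht => ht.differentiableAt (by norm_num)
    exact a.continuous.continuousAt.eventually h1
  have h4 : ∀ t, HasFDerivAt (fun t => a t) (a.toContinuousLinearEquiv : E2 →L[ℝ] E2) t :=
    fun t => (a.toContinuousLinearEquiv : E2 →L[ℝ] E2).hasFDerivAt
  have h1 : gradient f =ᶠ[𝓝 q] fun t => a.symm (gradient g (a t)) := by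
    filter_upwards [h.eventuallyEq_nhds, hd] with t ht hdt
    rw [gradient_congr ht, gradient_comp (g := fun t => a t) hdt (h4 t).differentiableAt,
      (h4 t).fderiv]
    refine ext_inner_right ℝ fun v => ?_
    rw [ContinuousLinearMap.adjoint_inner_left, ← a.inner_map_map (a.symm _) v,
      LinearIsometryEquiv.apply_symm_apply]
    rfl
  have h2 : DifferentiableAt ℝ (gradient g) (a q) := (rz.differentiableAt).comp (a q)
    ((hg.fderiv_right (m := 1) (by norm_num)).differentiableAt (by norm_num))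
  have h3 : HasFDerivAt (fun t => a.symm (gradient g (a t)))
      ((a.symm.toContinuousLinearEquiv : E2 →L[ℝ] E2) ∘L (hess g (a q) ∘L
        (a.toContinuousLinearEquiv : E2 →L[ℝ] E2))) q :=
    (a.symm.toContinuousLinearEquiv : E2 →L[ℝ] E2).hasFDerivAt.comp q
      (h2.hasFDerivAt.comp q (h4 q))
  rw [hess, h1.fderiv_eq, h3.fderiv]
  rfl

theorem HS_rot (a : O2) {x : X} {q : E2} (h : (x, a q) ∈ P.Af.dT) (v : E2) :
    P.HS (L.rot a x) q v = a.symm (P.HS x (a q) (a v)) := by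
  refine hess_rot a ?_ ((P.Sq_smooth x _ _ h).of_le two_le_infty) v
  have h2 : ∀ᶠ t in 𝓝 (a q), (x, t) ∈ P.Af.dT := (isOpen_slice P.Af.isOpen_dT x).mem_nhds h
  filter_upwards [a.continuous.continuousAt.eventually h2] with t ht
  rw [Sq, Sq, L.em_rot, P.Af.pt_rot, P.bq_rot a ht, P.bq_rot a ht]

theorem HS_bound {r : ℝ} (hr : r < P.Af.rad) :
    ∃ M, ∀ x, ∀ q ∈ closedBall (0 : E2) r, ‖P.HS x q‖ ≤ M :=
  bnd_unif L (isCompact_closedBall _ _)
    (P.HS_cont.mono fun p hp => P.Af.ball_dT p.1 (closedBall_subset_ball hr hp.2))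
    fun g x _ hq => P.HS_smul g (P.Af.ball_dT x (closedBall_subset_ball hr hq))

/-- **uniform positivity of the Hessian** -/
theorem HS_unif {r : ℝ} (hr : r < P.Af.rad) :
    ∃ c > 0, ∀ x, ∀ q ∈ closedBall (0 : E2) r, ∀ v, c * ‖v‖ ^ 2 ≤ inner ℝ (P.HS x q v) v :=
  pos_unif L (isCompact_closedBall _ _)
    (P.HS_cont.mono fun p hp => P.Af.ball_dT p.1 (closedBall_subset_ball hr hp.2))
    (fun g x _ hq => P.HS_smul g (P.Af.ball_dT x (closedBall_subset_ball hr hq)))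
    fun x _ hq => P.HS_pos x (P.Af.ball_dT x (closedBall_subset_ball hr hq))

/-! ### the tensor `N0` -/

theorem N0_HS (x : X) {q : E2} (h : (x, q) ∈ P.Af.dT) (v : E2) : P.N0 x q (P.HS x q v) = v :=
  inverse_apply (P.HS_inv x h) v

theorem HS_N0 (x : X) {q : E2} (h : (x, q) ∈ P.Af.dT) (v : E2) : P.HS x q (P.N0 x q v) = v :=
  apply_inverse (P.HS_inv x h) v

theorem N0_pos (x : X) {q : E2} (h : (x, q) ∈ P.Af.dT) (v : E2) (hv : v ≠ 0) :
    0 < inner ℝ (P.N0 x q v) v := inverse_pos (P.HS_pos x h) v hv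

theorem N0_symm (x : X) {q : E2} (h : (x, q) ∈ P.Af.dT) (v w : E2) :
    inner ℝ (P.N0 x q v) w = inner ℝ v (P.N0 x q w) :=
  inverse_symm (P.HS_inv x h) (P.HS_symm x h) v w

theorem N0_cont : ContinuousOn (fun p : X × E2 => P.N0 p.1 p.2) P.Af.dT := fun p hp =>
  ContinuousAt.comp_continuousWithinAt (f := fun p : X × E2 => P.HS p.1 p.2)
    (continuousAt_inverse (P.HS_inv p.1 hp)) (P.HS_cont p hp)

theorem N0_smul (g : Γ) {x : X} {q : E2} (h : (x, q) ∈ P.Af.dT) :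
    P.N0 (g • x) q = P.N0 x q := by
  rw [N0_eq_inverse, N0_eq_inverse, P.HS_smul g h]

theorem N0_rot (a : O2) {x : X} {q : E2} (h : (x, a q) ∈ P.Af.dT) (v : E2) :
    P.N0 (L.rot a x) q v = a.symm (P.N0 x (a q) (a v)) := by
  have h1 : (L.rot a x, q) ∈ P.Af.dT := (P.Af.dT_rot a).2 h
  have h2 := P.HS_rot a h (a.symm (P.N0 x (a q) (a v)))
  rw [LinearIsometryEquiv.apply_symm_apply, P.HS_N0 x h, LinearIsometryEquiv.symm_apply_apply] at h2
  have h3 := P.N0_HS _ h1 (a.symm (P.N0 x (a q) (a v)))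
  rwa [h2] at h3

theorem N0_bound {r : ℝ} (hr : r < P.Af.rad) :
    ∃ M, ∀ x, ∀ q ∈ closedBall (0 : E2) r, ‖P.N0 x q‖ ≤ M :=
  bnd_unif L (isCompact_closedBall _ _)
    (P.N0_cont.mono fun p hp => P.Af.ball_dT p.1 (closedBall_subset_ball hr hp.2))
    fun g x _ hq => P.N0_smul g (P.Af.ball_dT x (closedBall_subset_ball hr hq))

/-- **uniform positivity of the tensor** -/
theorem N0_unif {r : ℝ} (hr : r < P.Af.rad) :
    ∃ c > 0, ∀ x, ∀ q ∈ closedBall (0 : E2) r, ∀ v, c * ‖v‖ ^ 2 ≤ inner ℝ (P.N0 x q v) v :=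
  pos_unif L (isCompact_closedBall _ _)
    (P.N0_cont.mono fun p hp => P.Af.ball_dT p.1 (closedBall_subset_ball hr hp.2))
    (fun g x _ hq => P.N0_smul g (P.Af.ball_dT x (closedBall_subset_ball hr hq)))
    fun x _ hq => P.N0_pos x (P.Af.ball_dT x (closedBall_subset_ball hr hq))

/-- `N0` in the disc coordinate -/
theorem N0_eq (x : X) {q : E2} (h : (x, q) ∈ P.Af.dT) :
    P.N0 x q = P.Af.dch x q ∘L Ring.inverse (P.He x (P.dsc x q)) ∘L
      ContinuousLinearMap.adjoint (P.Af.dch x q) := by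
  have hi := P.He_inv x (P.mem3 h)
  have e1 : P.Af.dch x q ∘L fderiv ℝ (P.dsc x) q = ContinuousLinearMap.id ℝ E2 :=
    P.Af.der_cu_dsc h
  have e2 : fderiv ℝ (P.dsc x) q ∘L P.Af.dch x q = ContinuousLinearMap.id ℝ E2 :=
    P.Af.der_dsc_cu h
  have e3 : ContinuousLinearMap.adjoint (fderiv ℝ (P.dsc x) q) ∘L
      ContinuousLinearMap.adjoint (P.Af.dch x q) = ContinuousLinearMap.id ℝ E2 := by
    rw [← ContinuousLinearMap.adjoint_comp, e1]
    exact ContinuousLinearMap.adjoint_id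
  have e4 : ContinuousLinearMap.adjoint (P.Af.dch x q) ∘L
      ContinuousLinearMap.adjoint (fderiv ℝ (P.dsc x) q) = ContinuousLinearMap.id ℝ E2 := by
    rw [← ContinuousLinearMap.adjoint_comp, e2]
    exact ContinuousLinearMap.adjoint_id
  rw [N0_eq_inverse]
  refine inverse_eq_of ?_ ?_
  · rw [P.HS_eq x h]
    ext1 v
    change P.Af.dch x q (Ring.inverse (P.He x (P.dsc x q))
      (ContinuousLinearMap.adjoint (P.Af.dch x q)
        (ContinuousLinearMap.adjoint (fderiv ℝ (P.dsc x) q)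
          (P.He x (P.dsc x q) (fderiv ℝ (P.dsc x) q v))))) = v
    have e4' := DFunLike.congr_fun e4 (P.He x (P.dsc x q) (fderiv ℝ (P.dsc x) q v))
    change ContinuousLinearMap.adjoint (P.Af.dch x q)
        (ContinuousLinearMap.adjoint (fderiv ℝ (P.dsc x) q)
          (P.He x (P.dsc x q) (fderiv ℝ (P.dsc x) q v))) = _ at e4'
    rw [e4']
    change P.Af.dch x q (Ring.inverse (P.He x (P.dsc x q))
          (P.He x (P.dsc x q) (fderiv ℝ (P.dsc x) q v))) = v
    rw [inverse_apply hi]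
    exact DFunLike.congr_fun e1 v
  · rw [P.HS_eq x h]
    ext1 v
    change ContinuousLinearMap.adjoint (fderiv ℝ (P.dsc x) q) (P.He x (P.dsc x q)
      (fderiv ℝ (P.dsc x) q (P.Af.dch x q (Ring.inverse (P.He x (P.dsc x q))
        (ContinuousLinearMap.adjoint (P.Af.dch x q) v))))) = v
    have e2' := DFunLike.congr_fun e2 (Ring.inverse (P.He x (P.dsc x q))
        (ContinuousLinearMap.adjoint (P.Af.dch x q) v))
    change fderiv ℝ (P.dsc x) q (P.Af.dch x q (Ring.inverse (P.He x (P.dsc x q))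
        (ContinuousLinearMap.adjoint (P.Af.dch x q) v))) = _ at e2'
    rw [e2']
    change ContinuousLinearMap.adjoint (fderiv ℝ (P.dsc x) q) (P.He x (P.dsc x q)
      (Ring.inverse (P.He x (P.dsc x q)) (ContinuousLinearMap.adjoint (P.Af.dch x q) v))) = v
    rw [apply_inverse hi]
    exact DFunLike.congr_fun e3 v

/-! ### the link -/

theorem mem_sgD (x : X) {u : E2} (hu : u ∈ ball (0 : E2) 3) : ((x, x), u) ∈ sgD L P.Bu.en :=
  ⟨hu, by
    change P.Bu.en x (L.em x) u ∈ L.e x '' ball (0 : E2) 3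
    rw [P.Bu.en_em x u hu]
    exact mem_image_of_mem _ hu⟩

theorem sgm_self (x : X) {u : E2} (hu : u ∈ ball (0 : E2) 3) : sgm L P.Bu.en x x u = u := by
  rw [sgm, P.Bu.en_em x u hu]
  exact (L.e_inj x).leftInvOn_invFunOn (ball_subset_closedBall hu)

/-- the link at the own point, on the disc -/
theorem N_eq (x : X) {u : E2} (hu : u ∈ ball (0 : E2) 3) :
    P.S.T.N x u = P.Bu.c₀ • Ring.inverse (P.He x u) + P.Bu.Rb x x u := by
  have h := P.Bu.link x x u (P.mem_sgD x hu) (P.nupos x u hu).ne'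
  have h1 : sgm L P.Bu.en x x =ᶠ[𝓝 u] id := by
    filter_upwards [isOpen_ball.mem_nhds hu] with w hw using P.sgm_self x hw
  have h3 : ContinuousLinearMap.adjoint (ContinuousLinearMap.id ℝ E2)
      = ContinuousLinearMap.id ℝ E2 := ContinuousLinearMap.adjoint_id
  rw [h1.fderiv_eq, fderiv_id, P.sgm_self x hu, P.Bu.en_em x u hu, h3] at h
  exact h

/-- the remainder -/
def Rl (x : X) (q : E2) : E2 →L[ℝ] E2 :=
  P.Af.dch x q ∘L P.Bu.Rb x x (P.dsc x q) ∘L ContinuousLinearMap.adjoint (P.Af.dch x q)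

/-- **LINK**: the tensor in the affine coordinate -/
theorem Na_eq (x : X) {q : E2} (h : (x, q) ∈ P.Af.dT) :
    P.Na x q = P.Bu.c₀ • P.N0 x q + P.Rl x q := by
  have h1 : P.Na x q = P.Af.dch x q ∘L P.S.T.N x (P.dsc x q) ∘L
      ContinuousLinearMap.adjoint (P.Af.dch x q) := rfl
  rw [h1, P.N_eq x (P.mem3 h), P.N0_eq x h, Rl]
  ext1 v
  change P.Af.dch x q ((P.Bu.c₀ • Ring.inverse (P.He x (P.dsc x q)) + P.Bu.Rb x x (P.dsc x q))
    (ContinuousLinearMap.adjoint (P.Af.dch x q) v)) = _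
  rw [add_apply, map_add, smul_apply, map_smul]
  rfl

theorem Rb_jc : JC (fun x u => P.Bu.Rb x x u) (univ ×ˢ ball 0 3) := by
  have hc : Continuous fun x : X => ((x, x) : X × X) := by fun_prop
  exact (P.Bu.Rb_jc.pullback hc).mono (isOpen_univ.prod isOpen_ball) fun p hp =>
    ⟨P.mem_sgD p.1 hp.2, (P.nupos p.1 p.2 hp.2).ne'⟩

theorem Rl_jc : JC P.Rl P.Af.dT := by
  have h1 : JC (fun x q => P.Bu.Rb x x (P.dsc x q)) P.Af.dT :=
    P.Rb_jc.comp' P.Af.dsc_jc fun p hp => ⟨mem_univ _, P.Af.dsc_mem hp⟩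
  exact P.Af.dch_jc.clm_comp (h1.clm_comp (P.Af.dch_jc.clm adjL))

theorem Na_smul (g : Γ) {x : X} {q : E2} (h : (x, q) ∈ P.Af.dT) : P.Na (g • x) q = P.Na x q := by
  have h1 : ∀ x, P.Na x q = P.Af.dch x q ∘L P.S.T.N x (P.Af.dsc x q) ∘L
      ContinuousLinearMap.adjoint (P.Af.dch x q) := fun _ => rfl
  rw [h1, h1, P.Af.dch_smul g h, P.Af.dsc_smul g h, P.S.T.N_smul g x _ (P.Af.dsc_mem h)]

theorem Na_rot (a : O2) {x : X} {q : E2} (h : (x, a q) ∈ P.Af.dT) (v : E2) :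
    P.Na (L.rot a x) q v = a.symm (P.Na x (a q) (a v)) := by
  have h0 := P.Af.dsc_mem h
  have h0' : a.symm (P.Af.dsc x (a q)) ∈ ball (0 : E2) 3 := (Aff.rot_ball a.symm).2 h0
  have h2 : ContinuousLinearMap.adjoint (P.Af.dch (L.rot a x) q) v
      = a.symm (ContinuousLinearMap.adjoint (P.Af.dch x (a q)) (a v)) := by
    refine ext_inner_right ℝ fun w => ?_
    rw [ContinuousLinearMap.adjoint_inner_left, P.Af.dch_rot a h,
      ← a.inner_map_map v, a.apply_symm_apply, ← a.inner_map_map (a.symm _) w,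
      a.apply_symm_apply, ContinuousLinearMap.adjoint_inner_left]
  change P.Af.dch (L.rot a x) q (P.S.T.N (L.rot a x) (P.Af.dsc (L.rot a x) q)
    (ContinuousLinearMap.adjoint (P.Af.dch (L.rot a x) q) v)) = _
  rw [h2, P.Af.dsc_rot a h, P.S.T.N_rot a x _ h0', P.Af.dch_rot a h]
  simp only [LinearIsometryEquiv.apply_symm_apply]
  rfl

theorem Na_symm (x : X) {q : E2} (v w : E2) :
    inner ℝ (P.Na x q v) w = inner ℝ v (P.Na x q w) := by
  change inner ℝ (P.Af.dch x q (P.S.T.N x (P.dsc x q)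
    (ContinuousLinearMap.adjoint (P.Af.dch x q) v))) w
    = inner ℝ v (P.Af.dch x q (P.S.T.N x (P.dsc x q)
      (ContinuousLinearMap.adjoint (P.Af.dch x q) w)))
  rw [← ContinuousLinearMap.adjoint_inner_right, P.S.T.N_symm,
    ContinuousLinearMap.adjoint_inner_left]

theorem Na_cont : ContinuousOn (fun p : X × E2 => P.Na p.1 p.2) P.Af.dT := by
  refine ((P.N0_cont.const_smul P.Bu.c₀).add P.Rl_jc.continuousOn).congr fun p hp => ?_
  exact P.Na_eq p.1 hp

theorem Na_bound {r : ℝ} (hr : r < P.Af.rad) :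
    ∃ M, ∀ x, ∀ q ∈ closedBall (0 : E2) r, ‖P.Na x q‖ ≤ M :=
  bnd_unif L (isCompact_closedBall _ _)
    (P.Na_cont.mono fun p hp => P.Af.ball_dT p.1 (closedBall_subset_ball hr hp.2))
    fun g x _ hq => P.Na_smul g (P.Af.ball_dT x (closedBall_subset_ball hr hq))

theorem Rl_smul (g : Γ) {x : X} {q : E2} (h : (x, q) ∈ P.Af.dT) : P.Rl (g • x) q = P.Rl x q := by
  have h1 := P.Na_eq x h
  have h2 := P.Na_eq (g • x) (P.Af.dT_smul g h)
  rw [P.Na_smul g h, P.N0_smul g h, h1] at h2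
  exact (add_left_cancel h2).symm

theorem Rl_rot (a : O2) {x : X} {q : E2} (h : (x, a q) ∈ P.Af.dT) (v : E2) :
    P.Rl (L.rot a x) q v = a.symm (P.Rl x (a q) (a v)) := by
  have h1 := DFunLike.congr_fun (P.Na_eq x h) (a v)
  have h2 := DFunLike.congr_fun (P.Na_eq (L.rot a x) ((P.Af.dT_rot a).2 h)) v
  rw [P.Na_rot a h] at h2
  rw [add_apply, smul_apply] at h1 h2
  rw [h1, P.N0_rot a h, map_add, map_smul] at h2
  exact (add_left_cancel h2).symm

/-- **uniform bounds of the remainder** -/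
theorem Rl_bound {r : ℝ} (hr : r < P.Af.rad) (k : ℕ) :
    ∃ M, ∀ x, ∀ q ∈ closedBall (0 : E2) r, ‖iteratedFDeriv ℝ k (P.Rl x) q‖ ≤ M :=
  Leaf.bnd L P.Rl_jc (fun g _ _ h => P.Rl_smul g h) (isCompact_closedBall _ _)
    (fun x _ hq => P.Af.ball_dT x (closedBall_subset_ball hr hq)) k

theorem Rl_smooth (x : X) {q : E2} (h : (x, q) ∈ P.Af.dT) : ContDiffAt ℝ ∞ (P.Rl x) q :=
  P.Rl_jc.contDiffAt h

end Pic

end Vale.Agent.P207.N4.Y
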