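import Vale.Agent.P207.N4.Dim
import Vale.Agent.P207.N7.H547.AffLemC
import Vale.Agent.P207.N4.H709.DarB

/-!
# P207, line N7, row LAB: the near leaves are labelled by their gradients

Over `P : Pic L V`: for `‖y‖ < P.rl` there is exactly one leaf `P.lb x y` with `0 < nu` and
`P.gr x (P.lb x y) 0 = y`; it is `em x` for `y = 0`, it depends continuously on `(x, y)`, it is
invariant under the group and equivariant under the rotations.
-/

set_option linter.unusedSectionVars false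

open Set Filter Topology Metric
open scoped ContDiff

noncomputable section

namespace Vale.Agent.P207.N4.Y

open Vale.Agent.P207.N3

variable [Dim]

open Vale.Agent.P207.N4.Y.H547 Vale.Agent.P207.N4.H709

variable {Γ X B : Type} [Group Γ] [MetricSpace X] [ProperSpace X] [MulAction Γ X]
  [IsIsometricSMul Γ X] [TopologicalSpace B] [CompactSpace B] [T2Space B] [MulAction Γ B]
  [ContinuousConstSMul Γ B]

namespace Pic

variable {L : Leaf Γ X B} [MeasurableSpace B] [BorelSpace B] {V : Type}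
  [NormedAddCommGroup V] [NormedSpace ℝ V] [FiniteDimensional ℝ V] (P : Pic L V)

/-- the radius of the labels -/
def rl : ℝ := P.Bu.δ / P.Af.c

theorem rl_pos : 0 < P.rl := div_pos P.Bu.δ_pos P.Af.c_pos

/-- the leaf with the gradient `y` at the centre of the disc of `x`, in the affine coordinate -/
def lb (x : X) (y : E2) : B := lab P.Bu x (P.Af.c • y)

theorem norm_c_smul (y : E2) : ‖P.Af.c • y‖ = P.Af.c * ‖y‖ := by
  rw [norm_smul, Real.norm_of_nonneg P.Af.c_pos.le]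

theorem lt_rl_iff (y : E2) : ‖P.Af.c • y‖ < P.Bu.δ ↔ ‖y‖ < P.rl := by
  rw [norm_c_smul, rl, lt_div_iff₀ P.Af.c_pos, mul_comm]

theorem lb_nu (x : X) {y : E2} (hy : ‖y‖ < P.rl) : 0 < P.Bu.nu x (P.lb x y) 0 :=
  lab_nu P.Bu x ((P.lt_rl_iff y).2 hy)

/-- **the label** -/
theorem gr_lb (x : X) {y : E2} (hy : ‖y‖ < P.rl) : P.gr x (P.lb x y) 0 = y := by
  have h := lab_grad P.Bu x ((P.lt_rl_iff y).2 hy)
  rw [H709.gradient_dl_zero] at h
  rw [P.gr_zero, lb, h, inv_smul_smul₀ P.Af.c_pos.ne']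

theorem Nr_lb {ε : ℝ} (x : X) {y : E2} (hy : ‖y‖ < P.rl) (hε : ‖y‖ ≤ ε) :
    P.Nr ε x (P.lb x y) := ⟨P.lb_nu x hy, by rwa [P.gr_lb x hy]⟩

/-- every small vector is the gradient of a near leaf -/
theorem exists_lb {ε : ℝ} (hε : 0 < ε) : ∃ ρ > 0, ∀ x, ∀ y : E2, ‖y‖ < ρ →
    ∃ ξ, P.Nr ε x ξ ∧ P.gr x ξ 0 = y :=
  ⟨min ε P.rl, lt_min hε P.rl_pos, fun x y hy => ⟨P.lb x y,
    P.Nr_lb x (hy.trans_le (min_le_right _ _)) (hy.le.trans (min_le_left _ _)),
    P.gr_lb x (hy.trans_le (min_le_right _ _))⟩⟩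

theorem gradient_dl_zero' (x : X) (ξ : B) :
    gradient (H709.dl P.Bu x ξ) 0 = P.Af.c • P.gr x ξ 0 := by
  rw [H709.gradient_dl_zero, P.gr_zero, smul_inv_smul₀ P.Af.c_pos.ne']

theorem lb_unique (x : X) (ξ : B) (h : 0 ≤ P.Bu.nu x ξ 0) (h' : ‖P.gr x ξ 0‖ < P.rl) :
    P.lb x (P.gr x ξ 0) = ξ := by
  have h1 : ‖gradient (H709.dl P.Bu x ξ) 0‖ < P.Bu.δ := by
    rw [P.gradient_dl_zero']
    exact (P.lt_rl_iff _).2 h'
  have h2 := lab_unique P.Bu x ξ h h1
  rwa [P.gradient_dl_zero'] at h2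

theorem Nr_unique {ε ε' : ℝ} {x : X} {ξ ξ' : B} (h : P.Nr ε x ξ) (h' : P.Nr ε' x ξ')
    (hg : P.gr x ξ 0 = P.gr x ξ' 0) : ξ = ξ' := by
  refine P.Bu.cov_inj x ξ ξ' 0 zero_mem3 h.1.le h'.1.le ?_
  have h1 := P.gr_zero x ξ
  rw [hg, P.gr_zero] at h1
  have h2 := congrArg (fun v => P.Af.c • v) h1
  simp only [smul_inv_smul₀ P.Af.c_pos.ne'] at h2
  exact h2.symm

/-- a near leaf with gradient zero is the leaf itself -/
theorem eq_em_of_gr {x : X} {ξ : B} (h : 0 ≤ P.Bu.nu x ξ 0) (h0 : P.gr x ξ 0 = 0) :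
    ξ = L.em x := by
  have h1 := P.lb_unique x ξ h (by rw [h0, norm_zero]; exact P.rl_pos)
  have h2 := P.lb_unique x (L.em x) (P.Bu.nu_em x).le
    (by rw [P.gr_em x (P.Af.zero_dT x), norm_zero]; exact P.rl_pos)
  rw [P.gr_em x (P.Af.zero_dT x)] at h2
  rw [h0] at h1
  rw [← h1, h2]

theorem lb_zero (x : X) : P.lb x 0 = L.em x := by
  rw [lb, smul_zero, lab_zero]

theorem lb_smul (g : Γ) (x : X) (y : E2) : P.lb (g • x) y = g • P.lb x y :=
  lab_smul P.Bu g x _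

theorem lb_rot (a : O2) (x : X) (y : E2) : P.lb (L.rot a x) y = P.lb x (a y) := by
  rw [lb, lb, lab_rot, map_smul]

theorem smul_cont (c : ℝ) : Continuous fun p : X × E2 => ((p.1, c • p.2) : X × E2) := by
  fun_prop

theorem lb_contAt {x₀ : X} {y₀ : E2} (hy₀ : ‖y₀‖ < P.rl) :
    ContinuousAt (fun p : X × E2 => P.lb p.1 p.2) (x₀, y₀) := by
  have h2 := lab_contAt P.Bu (x₀ := x₀) ((P.lt_rl_iff y₀).2 hy₀)
  have h3 := (smul_cont (X := X) P.Af.c).continuousAt (x := (x₀, y₀))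
  exact ContinuousAt.comp' (f := fun p : X × E2 => ((p.1, P.Af.c • p.2) : X × E2)) h2 h3

theorem lb_cont : ContinuousOn (fun p : X × E2 => P.lb p.1 p.2) (univ ×ˢ ball 0 P.rl) := by
  rintro ⟨x₀, y₀⟩ ⟨-, hy₀⟩
  exact (P.lb_contAt (by simpa using hy₀)).continuousWithinAt

/-- the domain of the labelled families -/
def Dl : Set ((X × E2) × E2) := {p | ‖p.1.2‖ < P.rl ∧ (p.1.1, p.2) ∈ P.Af.dT}

theorem isOpen_Dl : IsOpen P.Dl := by
  have h1 : IsOpen {p : (X × E2) × E2 | ‖p.1.2‖ < P.rl} :=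
    isOpen_lt (by fun_prop) continuous_const
  exact h1.inter (P.Af.isOpen_dT.preimage
    (by fun_prop : Continuous fun p : (X × E2) × E2 => (p.1.1, p.2)))

theorem isOpen_rl : IsOpen {p : X × E2 | ‖p.2‖ < P.rl} := isOpen_lt (by fun_prop) continuous_const

theorem lbx_cont : ContinuousOn (fun p : X × E2 => ((p.1, P.lb p.1 p.2) : X × B))
    {p | ‖p.2‖ < P.rl} := by
  refine continuousOn_fst.prodMk ((P.lb_cont).mono fun _ hp => ⟨mem_univ _, ?_⟩)
  simpa using hp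

/-- a family over the leaves, in the labels -/
theorem lb_jc {F : Type} [NormedAddCommGroup F] [NormedSpace ℝ F] {f : X × B → E2 → F}
    (h : JC f P.dTB) : JC (fun (p : X × E2) q => f (p.1, P.lb p.1 p.2) q) P.Dl :=
  JC.pullbackOn h P.lbx_cont P.isOpen_Dl fun _ hp => ⟨hp.1, hp.2⟩

theorem dl_lb_jc : JC (fun (p : X × E2) q => P.dl p.1 (P.lb p.1 p.2) q) P.Dl := P.lb_jc P.dl_jc

theorem gr_lb_jc : JC (fun (p : X × E2) q => P.gr p.1 (P.lb p.1 p.2) q) P.Dl := P.lb_jc P.gr_jc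

/-- **an invariant open property of the pair `(x, em x)` holds for all near leaves, uniformly** -/
theorem near_of {Q : X → B → Prop} (hinv : ∀ (g : Γ) x ξ, Q (g • x) (g • ξ) → Q x ξ)
    (h : ∀ x, ∀ᶠ p : X × B in 𝓝 (x, L.em x), Q p.1 p.2) :
    ∃ ε > 0, ∀ x ξ, P.Nr ε x ξ → Q x ξ := by
  obtain ⟨K, hK, hK'⟩ := L.cocompact
  have h1 : ∀ᶠ y in 𝓝 (0 : E2), ∀ x ∈ K, Q x (P.lb x y) := by
    refine hK.eventually_forall_of_forall_eventually (x₀ := (0 : E2))
      (P := fun y x => Q x (P.lb x y)) fun x _ => ?_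
    have h2 : ContinuousAt (fun p : X × E2 => ((p.1, P.lb p.1 p.2) : X × B)) (x, 0) :=
      continuousAt_fst.prodMk (P.lb_contAt (by rw [norm_zero]; exact P.rl_pos))
    have h3 : Tendsto (fun p : X × E2 => ((p.1, P.lb p.1 p.2) : X × B)) (𝓝 (x, 0))
        (𝓝 (x, L.em x)) := by
      have h4 := h2.tendsto
      simp only [P.lb_zero] at h4
      exact h4
    exact (continuous_swap.tendsto (0, x)).eventually (h3.eventually (h x))
  obtain ⟨ρ, hρ, h4⟩ := Metric.eventually_nhds_iff_ball.1 h1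
  refine ⟨min ρ P.rl / 2, by have := P.rl_pos; positivity, fun x ξ hN => ?_⟩
  obtain ⟨g, hg⟩ := hK' x
  have hr : min ρ P.rl / 2 < min ρ P.rl := half_lt_self (lt_min hρ P.rl_pos)
  have h5 : ‖P.gr x ξ 0‖ < P.rl := hN.2.trans_lt (hr.trans_le (min_le_right _ _))
  have h6 : ‖P.gr x ξ 0‖ < ρ := hN.2.trans_lt (hr.trans_le (min_le_left _ _))
  refine hinv g x ξ ?_
  have h7 := h4 (P.gr x ξ 0) (by simpa using h6) (g • x) hg
  rwa [P.lb_smul, P.lb_unique x ξ hN.1.le h5] at h7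

end Pic

end Vale.Agent.P207.N4.Y
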