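import Vale.Agent.P207.N4.Dim
import Vale.Agent.P207.N7.H547.AffLemC

/-!
# P207, line N7, row AFFLEM, part D: bounds of the generating functions on the unit ball
-/

set_option linter.unusedSectionVars false

open Set Filter Topology Metric
open scoped ContDiff

noncomputable section

namespace Vale.Agent.P207.N4.Y

open Vale.Agent.P207.N3

variable [Dim]

variable {Γ X B : Type} [Group Γ] [MetricSpace X] [ProperSpace X] [MulAction Γ X]
  [IsIsometricSMul Γ X] [TopologicalSpace B] [CompactSpace B] [T2Space B] [MulAction Γ B]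
  [ContinuousConstSMul Γ B]

namespace Pic

variable {L : Leaf Γ X B} [MeasurableSpace B] [BorelSpace B] {V : Type}
  [NormedAddCommGroup V] [NormedSpace ℝ V] [FiniteDimensional ℝ V] (P : Pic L V)

theorem one_lt_rad : (1 : ℝ) < P.Af.rad := by linarith [P.Af.two_lt_rad]

/-- the functions `dl x ξ` are smooth on the unit ball, with uniform bounds -/
theorem dlB : (∀ x ξ, ContDiffOn ℝ ∞ (P.dl x ξ) (ball 0 1)) ∧ ∀ k : ℕ, ∃ C, ∀ x ξ,
    ∀ q ∈ ball (0 : E2) 1, ‖iteratedFDeriv ℝ k (P.dl x ξ) q‖ ≤ C := by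
  refine ⟨fun x ξ q hq => (P.dl_smooth x ξ (P.Af.ball_dT x
    (ball_subset_ball P.one_lt_rad.le hq))).contDiffWithinAt, fun k => ?_⟩
  obtain ⟨C, hC⟩ := P.dl_bound P.one_lt_rad k
  exact ⟨C, fun x ξ q hq => hC x ξ q (ball_subset_closedBall hq)⟩

/-- the tensors on the unit ball: `Na = c₀ N0 + Rl` with `Rl` smooth and uniformly bounded -/
theorem link_one : (∀ x, ContDiffOn ℝ ∞ (P.Rl x) (ball 0 2)) ∧
    (∀ k : ℕ, ∃ C, ∀ x, ∀ q ∈ ball (0 : E2) 2, ‖iteratedFDeriv ℝ k (P.Rl x) q‖ ≤ C) ∧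
    ∀ x, ∀ q ∈ ball (0 : E2) 2, P.Na x q = P.Bu.c₀ • P.N0 x q + P.Rl x q := by
  have h : ∀ (x : X) {q : E2}, q ∈ ball (0 : E2) 2 → (x, q) ∈ P.Af.dT := fun x _ hq =>
    P.Af.closedBall_dT x (ball_subset_closedBall hq)
  refine ⟨fun x q hq => (P.Rl_smooth x (h x hq)).contDiffWithinAt, fun k => ?_,
    fun x q hq => P.Na_eq x (h x hq)⟩
  obtain ⟨C, hC⟩ := P.Rl_bound P.Af.two_lt_rad k
  exact ⟨C, fun x q hq => hC x q (ball_subset_closedBall hq)⟩

end Pic

end Vale.Agent.P207.N4.Y
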