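import Vale.Agent.P207.N4.Dim
import Vale.Agent.P207.N7.H58.Pic
import Vale.Agent.P207.N4.H459.Inv

/-!
# P207, line N7, row AFFLEM, part A1: the disc in the affine coordinate

Over `F : Aff L`: `F.dT = {(x, q) | pt x q ∈ e x (ball 0 3)}` is open, invariant and contains
`univ ×ˢ ball 0 R` for some `R > 2`; on it `F.dsc x q ∈ ball 0 3`, `e x (dsc x q) = pt x q`,
`ch x (e x (dsc x q)) = q`, and `dsc` is a family with jointly continuous derivatives (`dsc_jc`),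
invariant under the group, equivariant under the rotations, with uniform bounds.
-/

set_option linter.unusedSectionVars false

open Set Filter Topology Metric
open scoped ContDiff

noncomputable section

namespace Vale.Agent.P207.N4.Y

open Vale.Agent.P207.N3

variable [Dim]

variable {Γ X B : Type} [Group Γ] [MetricSpace X] [ProperSpace X] [MulAction Γ X]
  [IsIsometricSMul Γ X] [TopologicalSpace B] [CompactSpace B] [T2Space B] [MulAction Γ B]
  [ContinuousConstSMul Γ B]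

/-- uniform bounds of an invariant family over the frames -/
theorem Leaf.bnd (L : Leaf Γ X B) {E G : Type} [NormedAddCommGroup E] [NormedSpace ℝ E]
    [ProperSpace E] [NormedAddCommGroup G] [NormedSpace ℝ G]
    {f : X → E → G} {S : Set (X × E)} (hf : JC f S)
    (hinv : ∀ (g : Γ) x q, (x, q) ∈ S → f (g • x) q = f x q) {C : Set E} (hC : IsCompact C)
    (hCS : ∀ x, ∀ q ∈ C, (x, q) ∈ S) (k : ℕ) :
    ∃ M, ∀ x, ∀ q ∈ C, ‖iteratedFDeriv ℝ k (f x) q‖ ≤ M := by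
  obtain ⟨K, hK, hK'⟩ := L.cocompact
  obtain ⟨M, hM⟩ := hf.bound (hK.prod hC) (fun p hp => hCS p.1 p.2 hp.2) k
  refine ⟨M, fun x q hq => ?_⟩
  obtain ⟨g, hg⟩ := hK' x
  have h2 : f x =ᶠ[𝓝 q] f (g • x) := by
    filter_upwards [(isOpen_slice hf.isOpen x).mem_nhds (hCS x q hq)] with w hw using
      (hinv g x w hw).symm
  rw [(h2.iteratedFDeriv ℝ k).self_of_nhds]
  exact hM (g • x, q) ⟨hg, hq⟩

/-- uniform bounds of an invariant family over the frames and the boundary -/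
theorem Leaf.bndB (L : Leaf Γ X B) {E G : Type} [NormedAddCommGroup E] [NormedSpace ℝ E]
    [ProperSpace E] [NormedAddCommGroup G] [NormedSpace ℝ G]
    {f : X × B → E → G} {S : Set ((X × B) × E)} (hf : JC f S)
    (hinv : ∀ (g : Γ) x ξ q, ((x, ξ), q) ∈ S → f (g • x, g • ξ) q = f (x, ξ) q)
    {C : Set E} (hC : IsCompact C) (hCS : ∀ x ξ, ∀ q ∈ C, ((x, ξ), q) ∈ S) (k : ℕ) :
    ∃ M, ∀ x ξ, ∀ q ∈ C, ‖iteratedFDeriv ℝ k (f (x, ξ)) q‖ ≤ M := by
  obtain ⟨K, hK, hK'⟩ := L.cocompact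
  obtain ⟨M, hM⟩ := hf.bound ((hK.prod (isCompact_univ (X := B))).prod hC)
    (fun p hp => hCS p.1.1 p.1.2 p.2 hp.2) k
  refine ⟨M, fun x ξ q hq => ?_⟩
  obtain ⟨g, hg⟩ := hK' x
  have h2 : f (x, ξ) =ᶠ[𝓝 q] f (g • x, g • ξ) := by
    filter_upwards [(isOpen_slice hf.isOpen (x, ξ)).mem_nhds (hCS x ξ q hq)] with w hw using
      (hinv g x ξ w hw).symm
  rw [(h2.iteratedFDeriv ℝ k).self_of_nhds]
  exact hM ((g • x, g • ξ), q) ⟨⟨hg, mem_univ _⟩, hq⟩

namespace Aff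

variable {L : Leaf Γ X B} (F : Aff L)

/-! ### the chart -/

theorem ch_smul (g : Γ) (x : X) (η : B) (h : η ≠ L.em x) : F.ch (g • x) (g • η) = F.ch x η := by
  have h1 := F.pt_smul g x (F.ch x η)
  rw [F.pt_ch x η h] at h1
  rw [← h1, F.ch_pt]

theorem ch_rot (a : O2) (x : X) (η : B) (h : η ≠ L.em x) :
    F.ch (L.rot a x) η = a.symm (F.ch x η) := by
  have h1 := F.pt_rot a x (a.symm (F.ch x η))
  rw [LinearIsometryEquiv.apply_symm_apply, F.pt_ch x η h] at h1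
  have h2 := F.ch_pt (L.rot a x) (a.symm (F.ch x η))
  rwa [h1] at h2

theorem pt_inj (x : X) {q q' : E2} (h : F.pt x q = F.pt x q') : q = q' := by
  rw [← F.ch_pt x q, h, F.ch_pt]

/-- the chart in the disc coordinate -/
def cu (x : X) (u : E2) : E2 := F.ch x (L.e x u)

theorem cu_jc : JC F.cu (univ ×ˢ ball 0 3) := F.jc

theorem pt_cu (x : X) {u : E2} (hu : u ∈ closedBall (0 : E2) 3) : F.pt x (F.cu x u) = L.e x u :=
  F.pt_ch x _ (L.e_ne x u hu)

theorem cu_zero (x : X) : F.cu x 0 = 0 := by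
  rw [cu, L.e_zero, ← F.pt_zero, F.ch_pt]

theorem cu_smul (g : Γ) (x : X) {u : E2} (hu : u ∈ closedBall (0 : E2) 3) :
    F.cu (g • x) u = F.cu x u := by
  rw [cu, cu, L.e_smul g x u hu, F.ch_smul g x _ (L.e_ne x u hu)]

theorem rot_closedBall (a : O2) {u : E2} {r : ℝ} : a u ∈ closedBall (0 : E2) r ↔
    u ∈ closedBall (0 : E2) r := by
  rw [mem_closedBall_zero_iff, mem_closedBall_zero_iff, LinearIsometryEquiv.norm_map]

theorem rot_ball (a : O2) {u : E2} {r : ℝ} : a u ∈ ball (0 : E2) r ↔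
    u ∈ ball (0 : E2) r := by
  rw [mem_ball_zero_iff, mem_ball_zero_iff, LinearIsometryEquiv.norm_map]

theorem cu_rot (a : O2) (x : X) {u : E2} (hu : u ∈ closedBall (0 : E2) 3) :
    F.cu (L.rot a x) u = a.symm (F.cu x (a u)) := by
  rw [cu, cu, L.e_rot a x u hu, F.ch_rot a x _ (L.e_ne x _ ((rot_closedBall a).2 hu))]

theorem cu_inj (x : X) : InjOn (F.cu x) (closedBall 0 3) := by
  intro u hu v hv h
  have h1 := congrArg (F.pt x) h
  rw [F.pt_cu x hu, F.pt_cu x hv] at h1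
  exact L.e_inj x hu hv h1

theorem cu_bound {r : ℝ} (hr : r < 3) (k : ℕ) :
    ∃ M, ∀ x, ∀ u ∈ closedBall (0 : E2) r, ‖iteratedFDeriv ℝ k (F.cu x) u‖ ≤ M :=
  Leaf.bnd L F.cu_jc (fun g x _ hu => F.cu_smul g x (ball_subset_closedBall hu.2)) (isCompact_closedBall _ _)
    (fun _ _ hu => ⟨mem_univ _, closedBall_subset_ball hr hu⟩) k

/-! ### the domain -/

/-- the domain of `dsc` -/
def dT : Set (X × E2) := {p | F.pt p.1 p.2 ∈ L.e p.1 '' ball 0 3}

theorem isOpen_dT : IsOpen F.dT :=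
  L.e_open.preimage ((continuous_fst.prodMk F.pt_cont : Continuous fun p : X × E2 =>
    ((p.1, F.pt p.1 p.2) : X × B)))

theorem dT_smul (g : Γ) {x : X} {q : E2} (h : (x, q) ∈ F.dT) : (g • x, q) ∈ F.dT := by
  obtain ⟨u, hu, h⟩ := h
  refine ⟨u, hu, ?_⟩
  change L.e (g • x) u = F.pt (g • x) q
  rw [L.e_smul g x u (ball_subset_closedBall hu), h, F.pt_smul]

theorem dT_rot (a : O2) {x : X} {q : E2} : (L.rot a x, q) ∈ F.dT ↔ (x, a q) ∈ F.dT := by
  constructor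
  · rintro ⟨u, hu, h⟩
    refine ⟨a u, (rot_ball a).2 hu, ?_⟩
    change L.e x (a u) = F.pt x (a q)
    rw [← L.e_rot a x u (ball_subset_closedBall hu), h, F.pt_rot]
  · rintro ⟨u, hu, h⟩
    have hu' : a.symm u ∈ ball (0 : E2) 3 := (rot_ball a.symm).2 hu
    refine ⟨a.symm u, hu', ?_⟩
    change L.e (L.rot a x) (a.symm u) = F.pt (L.rot a x) q
    rw [L.e_rot a x _ (ball_subset_closedBall hu'), LinearIsometryEquiv.apply_symm_apply, h,
      F.pt_rot]

theorem closedBall_dT (x : X) {q : E2} (hq : q ∈ closedBall (0 : E2) 2) : (x, q) ∈ F.dT := by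
  obtain ⟨u, hu, h⟩ := F.unit x q hq
  exact ⟨u, ball_subset_ball (by norm_num) hu, h⟩

theorem exists_radius : ∃ R : ℝ, 2 < R ∧ ∀ x, ∀ q ∈ ball (0 : E2) R, (x, q) ∈ F.dT := by
  obtain ⟨K, hK, hK'⟩ := L.cocompact
  obtain ⟨δ, hδ, h⟩ := (hK.prod (isCompact_closedBall (0 : E2) 2)).exists_thickening_subset_open
    F.isOpen_dT (fun p hp => F.closedBall_dT p.1 hp.2)
  refine ⟨2 + δ, by linarith, fun x q hq => ?_⟩
  obtain ⟨g, hg⟩ := hK' x
  have h1 : q ∈ thickening δ (closedBall (0 : E2) 2) := by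
    rw [thickening_closedBall hδ (by norm_num), add_comm]
    exact hq
  obtain ⟨q', hq', h2⟩ := mem_thickening_iff.1 h1
  have h3 : (g • x, q) ∈ F.dT := by
    refine h (mem_thickening_iff.2 ⟨(g • x, q'), ⟨hg, hq'⟩, ?_⟩)
    rw [Prod.dist_eq, dist_self]
    exact max_lt hδ h2
  have h4 := F.dT_smul g⁻¹ h3
  rwa [inv_smul_smul] at h4

/-- a radius larger than `2` -/
def rad : ℝ := F.exists_radius.choose

theorem two_lt_rad : 2 < F.rad := F.exists_radius.choose_spec.1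

theorem ball_dT (x : X) {q : E2} (hq : q ∈ ball (0 : E2) F.rad) : (x, q) ∈ F.dT :=
  F.exists_radius.choose_spec.2 x q hq

theorem closedBall_rad : closedBall (0 : E2) 2 ⊆ ball (0 : E2) F.rad :=
  closedBall_subset_ball F.two_lt_rad

theorem ball_rad : ball (0 : E2) 2 ⊆ ball (0 : E2) F.rad :=
  ball_subset_ball F.two_lt_rad.le

/-! ### the point of the disc -/

theorem dsc_unique (x : X) {q u : E2} (hu : u ∈ closedBall (0 : E2) 3) (h : L.e x u = F.pt x q) :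
    F.dsc x q = u := by
  rw [dsc, ← h]
  exact (L.e_inj x).leftInvOn_invFunOn hu

theorem dsc_mem {x : X} {q : E2} (h : (x, q) ∈ F.dT) : F.dsc x q ∈ ball (0 : E2) 3 := by
  obtain ⟨u, hu, h⟩ := h
  rw [F.dsc_unique x (ball_subset_closedBall hu) h]
  exact hu

theorem e_dsc {x : X} {q : E2} (h : (x, q) ∈ F.dT) : L.e x (F.dsc x q) = F.pt x q := by
  obtain ⟨u, hu, h⟩ := h
  rw [F.dsc_unique x (ball_subset_closedBall hu) h]
  exact h

theorem cu_dsc {x : X} {q : E2} (h : (x, q) ∈ F.dT) : F.cu x (F.dsc x q) = q := by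
  rw [cu, F.e_dsc h, F.ch_pt]

theorem dsc_cu (x : X) {u : E2} (hu : u ∈ closedBall (0 : E2) 3) : F.dsc x (F.cu x u) = u :=
  F.dsc_unique x hu (F.pt_cu x hu).symm

theorem dT_cu (x : X) {u : E2} (hu : u ∈ ball (0 : E2) 3) : (x, F.cu x u) ∈ F.dT :=
  ⟨u, hu, (F.pt_cu x (ball_subset_closedBall hu)).symm⟩

theorem dsc_mem_one (x : X) {q : E2} (hq : q ∈ closedBall (0 : E2) 2) :
    F.dsc x q ∈ ball (0 : E2) 1 := by
  obtain ⟨u, hu, h⟩ := F.unit x q hq
  rw [F.dsc_unique x (ball_subset_closedBall (ball_subset_ball (by norm_num) hu)) h]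
  exact hu

theorem zero_dT (x : X) : (x, (0 : E2)) ∈ F.dT :=
  F.closedBall_dT x (mem_closedBall_self (by norm_num))

theorem dsc_zero (x : X) : F.dsc x 0 = 0 :=
  F.dsc_unique x (mem_closedBall_self (by norm_num)) (by rw [L.e_zero, F.pt_zero])

theorem dsc_smul (g : Γ) {x : X} {q : E2} (h : (x, q) ∈ F.dT) :
    F.dsc (g • x) q = F.dsc x q := by
  have h1 := ball_subset_closedBall (F.dsc_mem h)
  exact F.dsc_unique _ h1 (by rw [L.e_smul g x _ h1, F.e_dsc h, F.pt_smul])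

theorem dsc_rot (a : O2) {x : X} {q : E2} (h : (x, a q) ∈ F.dT) :
    F.dsc (L.rot a x) q = a.symm (F.dsc x (a q)) := by
  have h1 := ball_subset_closedBall (F.dsc_mem h)
  have h2 : a.symm (F.dsc x (a q)) ∈ closedBall (0 : E2) 3 := (rot_closedBall a.symm).2 h1
  refine F.dsc_unique _ h2 ?_
  rw [L.e_rot a x _ h2, LinearIsometryEquiv.apply_symm_apply, F.e_dsc h, F.pt_rot]

/-- **the disc in the affine coordinate is smooth** -/
theorem dsc_jc : JC F.dsc F.dT := by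
  refine JC.of_local F.isOpen_dT fun p hp => ?_
  have hu := F.dsc_mem hp
  obtain ⟨T, g, hg, h1, -, h3, -⟩ := JC.exists_inverse F.cu_jc (z₀ := p.1) (u₀ := F.dsc p.1 p.2)
    ⟨mem_univ _, hu⟩ (F.der_inv p.1 _ hu)
  refine ⟨T, ?_, ?_⟩
  · rw [F.cu_dsc hp] at h1
    exact h1
  · refine hg.congr fun p' hp' => ?_
    obtain ⟨h4, h5, -⟩ := h3 p' hp'
    have h6 := F.dsc_cu p'.1 (ball_subset_closedBall h4.2)
    change F.dsc p'.1 (F.cu p'.1 (g p'.1 p'.2)) = g p'.1 p'.2 at h6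
    rwa [h5] at h6

theorem dsc_jc_ball : JC F.dsc (univ ×ˢ ball 0 F.rad) :=
  F.dsc_jc.mono (isOpen_univ.prod isOpen_ball) fun p hp => F.ball_dT p.1 hp.2

theorem dsc_diff {x : X} {q : E2} (h : (x, q) ∈ F.dT) : DifferentiableAt ℝ (F.dsc x) q :=
  F.dsc_jc.differentiableAt h

theorem cu_diff (x : X) {u : E2} (h : u ∈ ball (0 : E2) 3) : DifferentiableAt ℝ (F.cu x) u :=
  F.cu_jc.differentiableAt (p := (x, u)) ⟨mem_univ _, h⟩

theorem dsc_smooth (x : X) {q : E2} (h : (x, q) ∈ F.dT) : ContDiffAt ℝ ∞ (F.dsc x) q :=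
  F.dsc_jc.contDiffAt h

/-- the derivatives are inverse to each other -/
theorem der_cu_dsc {x : X} {q : E2} (h : (x, q) ∈ F.dT) :
    fderiv ℝ (F.cu x) (F.dsc x q) ∘L fderiv ℝ (F.dsc x) q = ContinuousLinearMap.id ℝ E2 := by
  have h1 := (F.cu_diff x (F.dsc_mem h)).hasFDerivAt.comp q (F.dsc_diff h).hasFDerivAt
  have h2 : (F.cu x ∘ F.dsc x) =ᶠ[𝓝 q] id := by
    filter_upwards [(isOpen_slice F.isOpen_dT x).mem_nhds h] with w hw using F.cu_dsc hw
  exact (h1.congr_of_eventuallyEq h2.symm).unique (hasFDerivAt_id q)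

theorem der_dsc_cu {x : X} {q : E2} (h : (x, q) ∈ F.dT) :
    fderiv ℝ (F.dsc x) q ∘L fderiv ℝ (F.cu x) (F.dsc x q) = ContinuousLinearMap.id ℝ E2 := by
  have hq : F.cu x (F.dsc x q) = q := F.cu_dsc h
  have h0 : DifferentiableAt ℝ (F.dsc x) (F.cu x (F.dsc x q)) := by
    rw [hq]
    exact F.dsc_diff h
  have h1 := h0.hasFDerivAt.comp _ (F.cu_diff x (F.dsc_mem h)).hasFDerivAt
  rw [hq] at h1
  have h2 : (F.dsc x ∘ F.cu x) =ᶠ[𝓝 (F.dsc x q)] id := by
    filter_upwards [isOpen_ball.mem_nhds (F.dsc_mem h)] with w hw using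
      F.dsc_cu x (ball_subset_closedBall hw)
  exact (h1.congr_of_eventuallyEq h2.symm).unique (hasFDerivAt_id _)

/-- the derivative of `dsc`, as an equivalence -/
def ddsc {x : X} {q : E2} (h : (x, q) ∈ F.dT) : E2 ≃L[ℝ] E2 :=
  ContinuousLinearEquiv.equivOfInverse (fderiv ℝ (F.dsc x) q) (fderiv ℝ (F.cu x) (F.dsc x q))
    (fun v => DFunLike.congr_fun (F.der_cu_dsc h) v) (fun v => DFunLike.congr_fun (F.der_dsc_cu h) v)

theorem ddsc_coe {x : X} {q : E2} (h : (x, q) ∈ F.dT) :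
    (F.ddsc h : E2 →L[ℝ] E2) = fderiv ℝ (F.dsc x) q := rfl

theorem ddsc_symm_coe {x : X} {q : E2} (h : (x, q) ∈ F.dT) :
    ((F.ddsc h).symm : E2 →L[ℝ] E2) = fderiv ℝ (F.cu x) (F.dsc x q) := rfl

theorem der_dsc_inv {x : X} {q : E2} (h : (x, q) ∈ F.dT) :
    (fderiv ℝ (F.dsc x) q).IsInvertible := ⟨F.ddsc h, rfl⟩

theorem der_dsc_inverse {x : X} {q : E2} (h : (x, q) ∈ F.dT) :
    (fderiv ℝ (F.dsc x) q).inverse = fderiv ℝ (F.cu x) (F.dsc x q) := by
  rw [← F.ddsc_coe h, ContinuousLinearMap.inverse_equiv, F.ddsc_symm_coe h]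

/-- the derivative at the centre -/
theorem der_dsc_zero (x : X) :
    fderiv ℝ (F.dsc x) 0 = F.c⁻¹ • ContinuousLinearMap.id ℝ E2 := by
  have h1 := F.der_cu_dsc (F.zero_dT x)
  have h2 : fderiv ℝ (F.cu x) 0 = F.c • ContinuousLinearMap.id ℝ E2 := F.der_zero x
  rw [F.dsc_zero, h2] at h1
  ext1 v
  have h3 := DFunLike.congr_fun h1 v
  change F.c • fderiv ℝ (F.dsc x) 0 v = v at h3
  change fderiv ℝ (F.dsc x) 0 v = F.c⁻¹ • v
  rw [eq_inv_smul_iff₀ F.c_pos.ne', h3]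

theorem dsc_bound {r : ℝ} (hr : r < F.rad) (k : ℕ) :
    ∃ M, ∀ x, ∀ q ∈ closedBall (0 : E2) r, ‖iteratedFDeriv ℝ k (F.dsc x) q‖ ≤ M :=
  Leaf.bnd L F.dsc_jc (fun g _ _ h => F.dsc_smul g h)
    (isCompact_closedBall _ _) (fun x _ hq => F.ball_dT x (closedBall_subset_ball hr hq)) k

theorem dsc_bound' (k : ℕ) :
    ∃ M, ∀ x, ∀ q ∈ closedBall (0 : E2) 2, ‖iteratedFDeriv ℝ k (F.dsc x) q‖ ≤ M :=
  F.dsc_bound F.two_lt_rad k

/-- the derivative of the chart at the point of the disc, in the affine coordinate -/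
def dch (x : X) (q : E2) : E2 →L[ℝ] E2 := fderiv ℝ (F.cu x) (F.dsc x q)

theorem dch_jc : JC F.dch F.dT :=
  F.cu_jc.fderiv.comp' F.dsc_jc fun p hp => ⟨mem_univ _, F.dsc_mem hp⟩

theorem dch_smul (g : Γ) {x : X} {q : E2} (h : (x, q) ∈ F.dT) : F.dch (g • x) q = F.dch x q := by
  rw [dch, dch, F.dsc_smul g h]
  have h1 : F.cu (g • x) =ᶠ[𝓝 (F.dsc x q)] F.cu x := by
    filter_upwards [isOpen_ball.mem_nhds (F.dsc_mem h)] with w hw using
      F.cu_smul g x (ball_subset_closedBall hw)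
  exact h1.fderiv_eq

theorem dch_rot (a : O2) {x : X} {q : E2} (h : (x, a q) ∈ F.dT) (v : E2) :
    F.dch (L.rot a x) q v = a.symm (F.dch x (a q) (a v)) := by
  rw [dch, dch, F.dsc_rot a h]
  have h0 := F.dsc_mem h
  have h0' : a.symm (F.dsc x (a q)) ∈ ball (0 : E2) 3 := (rot_ball a.symm).2 h0
  have h1 : F.cu (L.rot a x) =ᶠ[𝓝 (a.symm (F.dsc x (a q)))] fun u => a.symm (F.cu x (a u)) := by
    filter_upwards [isOpen_ball.mem_nhds h0'] with w hw using
      F.cu_rot a x (ball_subset_closedBall hw)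
  rw [h1.fderiv_eq]
  have h2 : HasFDerivAt (F.cu x) (fderiv ℝ (F.cu x) (F.dsc x (a q))) (a (a.symm (F.dsc x (a q)))) := by
    rw [LinearIsometryEquiv.apply_symm_apply]
    exact (F.cu_diff x h0).hasFDerivAt
  have h3 := (a.symm.toContinuousLinearEquiv : E2 →L[ℝ] E2).hasFDerivAt.comp
    (a.symm (F.dsc x (a q))) (h2.comp (a.symm (F.dsc x (a q)))
      (a.toContinuousLinearEquiv : E2 →L[ℝ] E2).hasFDerivAt)
  have h4 : HasFDerivAt (fun u => a.symm (F.cu x (a u)))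
    ((a.symm.toContinuousLinearEquiv : E2 →L[ℝ] E2) ∘L (fderiv ℝ (F.cu x) (F.dsc x (a q)) ∘L
      (a.toContinuousLinearEquiv : E2 →L[ℝ] E2))) (a.symm (F.dsc x (a q))) := h3
  rw [h4.fderiv]
  rfl

theorem dch_bound {r : ℝ} (hr : r < F.rad) (k : ℕ) :
    ∃ M, ∀ x, ∀ q ∈ closedBall (0 : E2) r, ‖iteratedFDeriv ℝ k (F.dch x) q‖ ≤ M :=
  Leaf.bnd L F.dch_jc (fun g _ _ h => F.dch_smul g h)
    (isCompact_closedBall _ _) (fun x _ hq => F.ball_dT x (closedBall_subset_ball hr hq)) k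

end Aff

end Vale.Agent.P207.N4.Y
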