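import Vale.Agent.P207.N4.Dim
import Vale.Agent.P207.N7.H547.AffLemD
import Vale.Agent.P207.N7.H751.Fin
import Vale.Agent.P207.N7.H832.RateP
import Vale.Agent.P207.H582.LQLink
import Vale.Agent.P207.H478.Bridge

/-!
# P207, line N7: Lemma Q in the form of the product formula, for `Na` and for `- N0`

If no `S`-space contains a symmetric form then Lemma Q holds in the form `H281.LQ` for the tensors
`P.Na x`, `P.N0 x`, `- P.N0 x`, with a constant which does not depend on the frame.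
-/

set_option linter.unusedSectionVars false
set_option maxSynthPendingDepth 3

open Set Filter Topology Metric
open scoped ContDiff

noncomputable section

namespace Vale.Agent.P207.N4.Y

open Vale.Agent.P207.N3

variable [Dim]

namespace H547

open Vale.Agent.P207.H281

/-- the trace of symmetric times antisymmetric vanishes -/
theorem trL_anti {N a : E2 →L[ℝ] E2} (hN : ∀ v w, inner ℝ (N v) w = inner ℝ v (N w))
    (ha : ∀ v w, inner ℝ (a v) w = - inner ℝ v (a w)) : trL E2 (N.comp a) = 0 := by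
  have h1 : ∀ T : E2 →L[ℝ] E2, trL E2 T
      = ∑ i, inner ℝ (EuclideanSpace.basisFun (Fin Dim.m) ℝ i)
        (T (EuclideanSpace.basisFun (Fin Dim.m) ℝ i)) := fun T =>
    LinearMap.trace_eq_sum_inner (T : E2 →ₗ[ℝ] E2) (EuclideanSpace.basisFun (Fin Dim.m) ℝ)
  have h2 : trL E2 (N.comp a) = trL E2 (a.comp N) := by
    rw [trL_apply, trL_apply]
    exact LinearMap.trace_mul_comm ℝ (N : E2 →ₗ[ℝ] E2) (a : E2 →ₗ[ℝ] E2)
  have h3 : trL E2 (N.comp a) = - trL E2 (a.comp N) := by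
    rw [h1, h1, ← Finset.sum_neg_distrib]
    refine Finset.sum_congr rfl fun i _ => ?_
    set b := EuclideanSpace.basisFun (Fin Dim.m) ℝ i
    change inner ℝ b (N (a b)) = - inner ℝ b (a (N b))
    have e1 := ha b (N b)
    rw [← hN, real_inner_comm, e1]
  linarith

theorem norm_le_sub_anti {σ s : E2 →L[ℝ] E2} (hσ : ∀ v w, inner ℝ (σ v) w = inner ℝ v (σ w))
    (hs : ∀ v w, inner ℝ (s v) w = - inner ℝ v (s w)) : ‖σ‖ ≤ ‖σ - s‖ := by
  have h1 : H478.IsAlt (H478.fo s) := fun u w => by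
    rw [H478.fo_apply, H478.fo_apply, hs, real_inner_comm]
  have h2 := H478.norm_le_of_alt hσ h1
  have h3 : H478.fo σ - H478.fo s = H478.fo (σ - s) :=
    (ContinuousLinearMap.map_sub (H478.fo : (E2 →L[ℝ] E2) →L[ℝ] H478.BF E2) σ s).symm
  rw [h3] at h2
  have h4 : ‖H478.fo (σ - s)‖ ≤ ‖(H478.fo : (E2 →L[ℝ] E2) →L[ℝ] H478.BF E2)‖ * ‖σ - s‖ :=
    ContinuousLinearMap.le_opNorm _ _
  have h5 : ‖(H478.fo : (E2 →L[ℝ] E2) →L[ℝ] H478.BF E2)‖ * ‖σ - s‖ ≤ 1 * ‖σ - s‖ :=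
    mul_le_mul_of_nonneg_right H478.norm_fo_le (norm_nonneg _)
  rw [one_mul] at h5
  exact h2.trans (h4.trans h5)

end H547

open Vale.Agent.P207.N4.Y.H547 Vale.Agent.P207.H281

variable {Γ X B : Type} [Group Γ] [MetricSpace X] [ProperSpace X] [MulAction Γ X]
  [IsIsometricSMul Γ X] [TopologicalSpace B] [CompactSpace B] [T2Space B] [MulAction Γ B]
  [ContinuousConstSMul Γ B]

namespace Pic

variable {L : Leaf Γ X B} [MeasurableSpace B] [BorelSpace B] {V : Type}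
  [NormedAddCommGroup V] [NormedSpace ℝ V] [FiniteDimensional ℝ V] (P : Pic L V)

theorem pr_eq_trL (N s : E2 →L[ℝ] E2) : Pic.pr N s = trL E2 (N.comp s) := rfl

/-- the symmetric part of an element of the `S`-space belongs to it -/
theorem sym_mem {x : X} {s : E2 →L[ℝ] E2} (hs : s ∈ P.Sm x) :
    (1 / 2 : ℝ) • (s + ContinuousLinearMap.adjoint s) ∈ P.Sm x := by
  refine ContDiffOn.congr hs fun q _ => ?_
  have h1 : ∀ v w, inner ℝ ((s - (1 / 2 : ℝ) • (s + ContinuousLinearMap.adjoint s)) v) w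
      = - inner ℝ v ((s - (1 / 2 : ℝ) • (s + ContinuousLinearMap.adjoint s)) w) := by
    intro v w
    simp only [sub_apply, smul_apply, add_apply, inner_sub_left, inner_sub_right,
      inner_smul_left, inner_smul_right, inner_add_left, inner_add_right,
      ContinuousLinearMap.adjoint_inner_left, ContinuousLinearMap.adjoint_inner_right]
    simp only [map_div₀, map_one, map_ofNat]
    ring
  have h2 := trL_anti (P.Na_symm x (q := q)) h1
  rw [ContinuousLinearMap.comp_sub, map_sub, sub_eq_zero] at h2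
  exact h2.symm

/-- **if there are no symmetric elements then the `S`-space is antisymmetric** -/
theorem anti_of (h : ∀ x, ∀ s ∈ P.Sm x, (∀ v w, inner ℝ (s v) w = inner ℝ v (s w)) → s = 0)
    {x : X} {s : E2 →L[ℝ] E2} (hs : s ∈ P.Sm x) (v w : E2) :
    inner ℝ (s v) w = - inner ℝ v (s w) := by
  have h1 := h x _ (P.sym_mem hs) (fun v w => by
    simp only [smul_apply, add_apply, inner_smul_left, inner_smul_right, inner_add_left,
      inner_add_right, ContinuousLinearMap.adjoint_inner_left,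
      ContinuousLinearMap.adjoint_inner_right]
    simp only [map_div₀, map_one, map_ofNat]
    ring)
  have h2 := DFunLike.congr_fun h1 v
  have h3 : inner ℝ (((1 / 2 : ℝ) • (s + ContinuousLinearMap.adjoint s)) v) w = 0 := by
    rw [h2]
    exact inner_zero_left w
  simp only [smul_apply, add_apply, inner_smul_left, inner_add_left,
    ContinuousLinearMap.adjoint_inner_left] at h3
  simp only [map_div₀, map_one, map_ofNat] at h3
  linarith

/-- Lemma Q over the picture, for all radii, with exponents `1 - e` -/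
def LQr : Prop := ∀ e : ℝ, 0 < e → ∀ r r' : ℝ, r' < r → r ≤ 1 → ∀ M : ℕ → ℝ, ∃ C : ℝ, 0 ≤ C ∧
  ∀ (x : X) (σ : E2 → E2 →L[ℝ] E2) (F : E2 → ℝ) (δ : ℝ), ContDiffOn ℝ ∞ σ (ball 0 r) →
    ContDiffOn ℝ ∞ F (ball 0 r) → (∀ k, ∀ y ∈ ball (0 : E2) r, ‖iteratedFDeriv ℝ k σ y‖ ≤ M k) →
    (∀ k, ∀ y ∈ ball (0 : E2) r, ‖iteratedFDeriv ℝ k F y‖ ≤ M k) → 0 < δ → δ ≤ 1 →
    (∀ y ∈ ball (0 : E2) r, |pr (P.Na x y) (σ y) - F y| ≤ δ) →
    ∀ q ∈ ball (0 : E2) r', ∃ s ∈ P.Sm x, ‖σ q - s‖ ≤ C * δ ^ (1 - e)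

/-- Lemma Q over the picture, for all radii -/
theorem lqr : P.LQr := H751.lqr_main P

/-- **Lemma Q for the tensors `Na`**, from Lemma Q over the picture -/
theorem lq_Na_of (hQ : P.LQr)
    (h : ∀ x, ∀ s ∈ P.Sm x, (∀ v w, inner ℝ (s v) w = inner ℝ v (s w)) → s = 0) :
    ∃ CQ : ℝ → ℝ → (ℕ → ℝ) → ℝ → ℝ, ∀ x, H281.LQ (P.Na x) CQ := by
  have key : ∀ (r R : ℝ) (M : ℕ → ℝ) (e : ℝ), ∃ C : ℝ, 1 / 2 ≤ r → r < R → R ≤ 1 → 0 < e →
      ∀ (x : X) (σ : E2 → E2 →L[ℝ] E2) (F : E2 → ℝ) (d : ℝ), SmB M R σ → SmB M R F →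
      (∀ x ∈ ball (0 : E2) R, ∀ u v, inner ℝ (σ x u) v = inner ℝ u (σ x v)) → 0 < d → d ≤ 1 →
      (∀ y ∈ ball (0 : E2) R, |trL E2 ((P.Na x y).comp (σ y)) - F y| ≤ d) →
      ∀ q ∈ ball (0 : E2) r, ‖σ q‖ ≤ C * d ^ (1 - e) := by
    intro r R M e
    by_cases hh : r < R ∧ R ≤ 1 ∧ 0 < e
    swap
    · exact ⟨0, fun _ h2 h3 h4 => absurd ⟨h2, h3, h4⟩ hh⟩
    obtain ⟨h2, h3, h4⟩ := hh
    obtain ⟨C, -, hC⟩ := hQ e h4 R r h2 h3 M
    refine ⟨C, fun _ _ _ _ x σ F d hσ hF hsym hd hd1 hb q hq => ?_⟩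
    obtain ⟨s, hs, hle⟩ := hC x σ F d hσ.1 hF.1 hσ.2 hF.2 hd hd1 hb q hq
    exact (norm_le_sub_anti (hsym q (ball_subset_ball h2.le hq)) (P.anti_of h hs)).trans hle
  choose CQ hCQ using key
  exact ⟨CQ, fun x r R M e h1 h2 h3 h4 σ F d => hCQ r R M e h1 h2 h3 h4 x σ F d⟩

/-- **Lemma Q for the tensors `N0`, `- N0`**, from Lemma Q over the picture -/
theorem lq_N0_of (hQ : P.LQr)
    (h : ∀ x, ∀ s ∈ P.Sm x, (∀ v w, inner ℝ (s v) w = inner ℝ v (s w)) → s = 0) :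
    ∃ CQ : ℝ → ℝ → (ℕ → ℝ) → ℝ → ℝ, ∀ x, H281.LQ (P.N0 x) CQ ∧
      H281.LQ (fun p => - P.N0 x p) CQ := by
  obtain ⟨CQ, hCQ⟩ := P.lq_Na_of hQ h
  obtain ⟨hs, hb, heq⟩ := P.link_one
  choose M hM using hb
  have hR : ∀ x, SmB M 1 (P.Rl x) := fun x =>
    ⟨(hs x).mono (ball_subset_ball (by norm_num)), fun k y hy =>
      hM k x y (ball_subset_ball (by norm_num) hy)⟩
  refine ⟨lkC E2 CQ P.Bu.c₀ M, fun x => ?_⟩
  have h1 : H281.LQ (P.N0 x) (lkC E2 CQ P.Bu.c₀ M) :=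
    H281.LQ.link P.Bu.c₀_pos.ne' (fun p hp => heq x p (ball_subset_ball (by norm_num) hp)) (hR x)
      (hCQ x)
  exact ⟨h1, h1.neg⟩

/-- **Lemma Q for the tensors `Na`** -/
theorem lq_Na (h : ∀ x, ∀ s ∈ P.Sm x, (∀ v w, inner ℝ (s v) w = inner ℝ v (s w)) → s = 0) :
    ∃ CQ : ℝ → ℝ → (ℕ → ℝ) → ℝ → ℝ, ∀ x, H281.LQ (P.Na x) CQ := P.lq_Na_of P.lqr h

/-- **Lemma Q for the tensors `- N0`** (the input `hQ` of the product formula) -/
theorem lq_N0 (h : ∀ x, ∀ s ∈ P.Sm x, (∀ v w, inner ℝ (s v) w = inner ℝ v (s w)) → s = 0) :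
    ∃ CQ : ℝ → ℝ → (ℕ → ℝ) → ℝ → ℝ, ∀ x, H281.LQ (P.N0 x) CQ ∧
      H281.LQ (fun p => - P.N0 x p) CQ := P.lq_N0_of P.lqr h

end Pic

end Vale.Agent.P207.N4.Y
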