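import Vale.Agent.P207.N7.H58.PicG
import Vale.Agent.P207.N7.H965.Aff6
import Vale.Agent.P207.N4.H547.RatV

/-!
# P207, theorem P: the picture from the geometry and the rates with a clock for large times
-/

open Set Filter Topology Metric MeasureTheory
open scoped ContDiff

set_option linter.unusedSectionVars false

noncomputable section

namespace Vale.Agent.P207.N4.Y.H547

open Vale.Agent.P207.N3

variable [Dim]

variable {Γ X B : Type} [Group Γ] [MetricSpace X] [ProperSpace X] [MulAction Γ X]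
  [IsIsometricSMul Γ X] [TopologicalSpace B] [CompactSpace B] [T2Space B] [MulAction Γ B]
  [ContinuousConstSMul Γ B]

variable {L : Leaf Γ X B}

/-- the clock of the rates -/
theorem clk {M : Metr L} (Ra : Rates M) : Clock.Ok L Ra.c Ra.c₀ Ra.c₁ where
  cont := Ra.c_cont
  smul := Ra.c_smul
  rot := Ra.c_rot
  flip := Ra.c_flip
  pos := Ra.c₀_pos
  lo := Ra.c_lo
  hi := Ra.c_hi

/-- the rates in the charts, with the clock -/
theorem lratesV {M : Metr L} (Ra : Rates M) :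
    N4.H77V.LRatesV L (Clock.sg L Ra.c) Ra.a Ra.b Ra.c₀ Ra.c₁ :=
  N4.H77V.lratesV_of M (clk Ra) Ra.a_pos Ra.a_le_b Ra.pinch Ra.sl_pos Ra.rate

/-- the exact rates for large times, without the slack -/
theorem rate_weak {M : Metr L} (Ra : Rates M) (t : ℝ) (ht : Ra.T ≤ t) (x : X) (v : E2) :
    Real.exp (Ra.a * Clock.sg L Ra.c t x) * ‖v‖ ≤ ‖N4.H77.Dt L t x v‖ ∧
      ‖N4.H77.Dt L t x v‖ ≤ Real.exp (Ra.b * Clock.sg L Ra.c t x) * ‖v‖ := by
  have h0 : 0 ≤ Ra.sl * Clock.sg L Ra.c t x :=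
    mul_nonneg Ra.sl_pos.le (Clock.sg_nonneg (clk Ra) (Ra.T_pos.le.trans ht) x)
  obtain ⟨h1, h2⟩ := Ra.rate t ht x v
  refine ⟨le_trans ?_ h1, h2.trans ?_⟩
  · have : Real.exp (Ra.a * Clock.sg L Ra.c t x) ≤
        Real.exp ((Ra.a + Ra.sl) * Clock.sg L Ra.c t x) := Real.exp_le_exp.2 (by nlinarith)
    gcongr
  · have : Real.exp ((Ra.b - Ra.sl) * Clock.sg L Ra.c t x) ≤
        Real.exp (Ra.b * Clock.sg L Ra.c t x) := Real.exp_le_exp.2 (by nlinarith)
    gcongr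

/-- **(T1)** from the rates for large times -/
theorem aff_of_dyn {M : Metr L} (Ra : Rates M) :
    ∃ F : Aff L, (∀ x η, F.ch x η = F.c • N4.H77.aff L x η) ∧
    (∀ x, ∀ u ∈ ball (0 : E2) 3, F.ch x (L.e x u) = F.c • N4.H77.lin L x u) ∧
    ∀ t x, ((F.P t x : E2 →L[ℝ] E2)) = N4.H77.Dt L t x :=
  H965.exists_affV (lratesV Ra)

theorem nonempty_aff {M : Metr L} (Ra : Rates M) : Nonempty (Aff L) := by
  obtain ⟨F, -⟩ := aff_of_dyn Ra
  exact ⟨F⟩

/-- **the picture exists** -/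
theorem picG_of [MeasurableSpace B] [BorelSpace B] {V : Type}
    [NormedAddCommGroup V] [NormedSpace ℝ V] [FiniteDimensional ℝ V] (S : Suite L V)
    (Cn : H618.Conn S.I S.M.U) (Ra : Rates S.M) :
    ∃ P : PicG L V, P.S = S ∧ P.Ra.a = Ra.a ∧ P.Ra.b = Ra.b := by
  obtain ⟨F, -, -, -⟩ := aff_of_dyn Ra
  exact ⟨PicG.mk' S Cn F Ra, rfl, rfl, rfl⟩

end Vale.Agent.P207.N4.Y.H547
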